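import Vale.Agent.Lib.P335.KKey
import Vale.Agent.Lib.P335.KPair
import Vale.Agent.Lib.P335.KJT

/-- The Kannan-Tetali-Vempala conjecture for simple graphs: the switch chain mixes in polynomial
time for every graphical degree vector: if the degree vector `d` on `n ≥ 4` vertices has a
realization, then `t_mix(d) ≤ 5400 n ^ 6`. -/
theorem Vale.Agent.Results.P335.KTV.result (n : ℕ) (hn : 4 ≤ n) (d : Fin n → ℕ)
    (hd : Nonempty (Vale.Agent.Lib.P335.Realizations d)) :
    ∃ t, t ≤ 5400 * n ^ 6 ∧ Vale.Agent.Lib.P335.MixedBy d t :=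
  Vale.Agent.Lib.P335.mixing_of_key hn hd (fun f =>
    Vale.Agent.Lib.P335.key_of_parts f (fun _ _ _ _ h => Vale.Agent.Lib.P335.pair_lower h f)
      (fun _ _ hab => Vale.Agent.Lib.P335.johnson_global hab f))
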