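import Vale.Agent.Lib.P335.KMain

/-- The Kannan-Tetali-Vempala conjecture for simple graphs: for every `n ≥ 4` and every graphical
degree vector `d` on `n` vertices, the switch chain has mixing time at most `5400 n ^ 6`. -/
theorem Vale.Agent.Results.P335.KTVFull.result (n : ℕ) (hn : 4 ≤ n) (d : Fin n → ℕ)
    (hd : Nonempty (Vale.Agent.Lib.P335.Realizations d)) :
    ∃ t, t ≤ 5400 * n ^ 6 ∧ Vale.Agent.Lib.P335.MixedBy d t :=
  Vale.Agent.Lib.P335.mixing_all hn hd
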