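import Vale.Agent.Lib.P335.SplitMain

/-- The switch chain mixes in polynomial time for every split degree vector: if the degree
vector `d` has a realization and `∑_{v ∈ A} d v = |A| (|A| - 1) + ∑_{v ∉ A} d v` for some vertex
set `A`, then `t_mix(d) ≤ 5400 n ^ 6`. -/
theorem Vale.Agent.Results.P335.SplitMixing.result (n : ℕ) (hn : 4 ≤ n) (d : Fin n → ℕ)
    (hd : Nonempty (Vale.Agent.Lib.P335.Realizations d)) (A : Finset (Fin n))
    (hA : ∑ v ∈ A, d v = A.card * (A.card - 1) + ∑ v ∈ Aᶜ, d v) :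
    ∃ t, t ≤ 5400 * n ^ 6 ∧ Vale.Agent.Lib.P335.MixedBy d t :=
  Vale.Agent.Lib.P335.split_mixing hn d hd A hA
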